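import Vale.Agent.H14.LT2.GIneq

/-!
P371, row G: `exists_G` (and row K: `Kl_posDef`, `Kl_sq`).
-/

open MeasureTheory Matrix Set Filter Topology
open scoped ENNReal ComplexOrder

namespace Vale.LT2.G14

open Vale.LT2

variable {N : ℕ}

/-- `dK_l/dl`. -/
noncomputable def Sl (K : Mat N) (l : ℝ) : Mat N := cfc (fun t : ℝ => 1 / (2 * √(t ^ 2 + l))) K

theorem Kl_sq (K : Mat N) (hK : K.PosDef) (l : ℝ) (hl : 0 ≤ l) :
    Kl K l * Kl K l = K * K + (l : ℂ) • 1 := by
  have h1 : K * K = cfc (fun t : ℝ => t * t) K := by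
    have := cmul K (fun t => t) (fun t => t)
    rwa [cid K hK.1] at this
  rw [h1, ← cconst K hK.1, cadd, Kl, cmul]
  apply ccongr K hK.1
  intro k
  rw [Real.mul_self_sqrt (by positivity)]
  ring

theorem Kl_hasDeriv (K : Mat N) (hK : K.IsHermitian) (l : ℝ) (hl : 0 < l) (i j : Fin N) :
    HasDerivAt (fun y => Kl K y i j) (Sl K l i j) l := by
  have h1 : (fun y => Kl K y i j) = fun y => ∑ k, ((√(hK.eigenvalues k ^ 2 + y) : ℝ) : ℂ) *
      ((hK.eigenvectorUnitary : Mat N) i k * star ((hK.eigenvectorUnitary : Mat N) j k)) := by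
    funext y
    exact cfc_entry K hK _ i j
  rw [h1, Sl, cfc_entry K hK]
  apply HasDerivAt.fun_sum
  intro k _
  apply HasDerivAt.mul_const
  have h2 : HasDerivAt (fun y : ℝ => √(hK.eigenvalues k ^ 2 + y))
      (1 / (2 * √(hK.eigenvalues k ^ 2 + l))) l := by
    have := ((hasDerivAt_id' l).const_add (hK.eigenvalues k ^ 2)).sqrt (by positivity)
    simpa using this
  exact h2.ofReal_comp

theorem Sl_mul (K : Mat N) (hK : K.PosDef) (l : ℝ) (hl : 0 < l) :
    Sl K l * (((2 : ℝ) : ℂ) • Kl K l) = 1 := by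
  rw [Matrix.mul_smul, Sl, Kl, cmul, ← one_mul (cfc _ K), ← Matrix.smul_mul, ← cconst K hK.1,
    cmul, ccongr K hK.1 _ (fun _ => 1), cconst K hK.1]
  · simp
  · intro k
    have : 0 < √(hK.1.eigenvalues k ^ 2 + l) := Real.sqrt_pos.2 (by positivity)
    field_simp

theorem mul_Sl (K : Mat N) (hK : K.PosDef) (l : ℝ) (hl : 0 < l) :
    (((2 : ℝ) : ℂ) • Kl K l) * Sl K l = 1 := by
  rw [Matrix.smul_mul, Sl, Kl, cmul, ← one_mul (cfc _ K), ← Matrix.smul_mul, ← cconst K hK.1,
    cmul, ccongr K hK.1 _ (fun _ => 1), cconst K hK.1]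
  · simp
  · intro k
    have : 0 < √(hK.1.eigenvalues k ^ 2 + l) := Real.sqrt_pos.2 (by positivity)
    field_simp

/-- uniform lower bound of `K_y ± M`. -/
theorem lower_bound (K M : Mat N) (hK : K.PosDef) (hM : (K + M).PosSemidef) (l : ℝ)
    (hl : 0 < l) : ∃ ε : ℝ, 0 < ε ∧ ∀ y, l / 2 ≤ y → (Kl K y + M - (ε : ℂ) • 1).PosSemidef := by
  set k := ∑ j, hK.1.eigenvalues j with hk
  have hk0 : 0 ≤ k := Finset.sum_nonneg fun j _ => (hK.eigenvalues_pos j).le
  have hkj : ∀ j, hK.1.eigenvalues j ≤ k := fun j =>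
    Finset.single_le_sum (f := fun j => hK.1.eigenvalues j)
      (fun j _ => (hK.eigenvalues_pos j).le) (Finset.mem_univ j)
  set ε := min 1 ((l / 2) / (2 * k + 1)) with hε
  have hε0 : 0 < ε := lt_min one_pos (by positivity)
  have hε1 : ε ≤ 1 := min_le_left _ _
  have hε2 : (2 * k + 1) * ε ≤ l / 2 := by
    have : ε ≤ (l / 2) / (2 * k + 1) := min_le_right _ _
    rw [le_div_iff₀ (by positivity)] at this
    linarith
  refine ⟨ε, hε0, fun y hy => ?_⟩
  have h1 : Kl K y + M - (ε : ℂ) • 1 = cfc (fun t : ℝ => √(t ^ 2 + y) - t - ε) K + (K + M) := by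
    rw [← csub, ← csub, cid K hK.1, cconst K hK.1, Kl]
    abel
  rw [h1]
  refine (cfc_psd K hK.1 _ fun j => ?_).add hM
  have hj := hK.eigenvalues_pos j
  have h2 : hK.1.eigenvalues j + ε ≤ √(hK.1.eigenvalues j ^ 2 + y) := by
    apply Real.le_sqrt_of_sq_le
    nlinarith [hkj j, mul_le_mul_of_nonneg_right (hkj j) hε0.le]
  linarith

theorem Kl_posDef (K M : Mat N) (hK : K.PosDef) (hM : Between K M) (l : ℝ) (hl : 0 < l) :
    (Kl K l + M).PosDef ∧ (Kl K l - M).PosDef := by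
  constructor
  · obtain ⟨ε, hε, h⟩ := lower_bound K M hK hM.lower l hl
    exact posDef_of_ge _ ε hε (h l (by linarith))
  · obtain ⟨ε, hε, h⟩ := lower_bound K (-M) hK (by rw [← sub_eq_add_neg]; exact hM.upper) l hl
    have := posDef_of_ge _ ε hε (h l (by linarith))
    rwa [← sub_eq_add_neg] at this

/-- the derivative of one half of `L_l` and the trace inequality. -/
theorem half (K M : Mat N) (hK : K.PosDef) (hMl : (K + M).PosSemidef)
    (l : ℝ) (hl : 0 < l) :
    (∀ X : Mat N, HasDerivAt (fun s => tp (cfc Real.log (Kl K s + M)) X)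
      (tp (Gm (Kl K l + M) (Sl K l)) X) l) ∧
      tp (Gm (Kl K l + M) (Sl K l)) ((l : ℂ) • 1 + (K * K - M * M))
        ≤ N - tp (Kl K l + M) (Sl K l) := by
  obtain ⟨ε, hε, h⟩ := lower_bound K M hK hMl l hl
  have hl' := h l (by linarith)
  constructor
  · intro X
    rw [(tp_Gm (Kl K l + M) (Sl K l) ε hε hl' X).2]
    apply hasDerivAt_log (fun y => Kl K y + M) (Sl K l) l ε hε
    · filter_upwards [lt_mem_nhds (show l / 2 < l by linarith)] with y hy
      exact h y hy.le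
    · intro i j
      have := (Kl_hasDeriv K hK.1 l hl i j).add_const (M i j)
      exact this
  · have hT : (((2 : ℝ) : ℂ) • Kl K l).PosSemidef := by
      have : ((2 : ℝ) : ℂ) • Kl K l = cfc (fun t : ℝ => 2 * √(t ^ 2 + l)) K := by
        rw [← cmul K (fun _ => 2), cconst K hK.1, Matrix.smul_mul, one_mul]
        rfl
      rw [this]
      exact cfc_psd K hK.1 _ fun k => by positivity
    have h1 := main_ineq (Kl K l + M) (Sl K l) (((2 : ℝ) : ℂ) • Kl K l) ε hε hl' (cherm K _) hT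
      (Sl_mul K hK l hl) (mul_Sl K hK l hl)
    have h2 : ((1 / 2 : ℝ) : ℂ) • ((((2 : ℝ) : ℂ) • Kl K l) * (Kl K l + M)
        + (Kl K l + M) * (((2 : ℝ) : ℂ) • Kl K l)) - (Kl K l + M) * (Kl K l + M)
        = (l : ℂ) • 1 + (K * K - M * M) := by
      have h3 := Kl_sq K hK l hl.le
      have h4 : ((1 / 2 : ℝ) : ℂ) • ((((2 : ℝ) : ℂ) • Kl K l) * (Kl K l + M)
        + (Kl K l + M) * (((2 : ℝ) : ℂ) • Kl K l)) = Kl K l * (Kl K l + M)
          + (Kl K l + M) * Kl K l := by
        rw [Matrix.smul_mul, Matrix.mul_smul, ← smul_add, smul_smul]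
        norm_num
      rw [h4]
      have h5 : Kl K l * (Kl K l + M) + (Kl K l + M) * Kl K l - (Kl K l + M) * (Kl K l + M)
          = Kl K l * Kl K l - M * M := by
        simp only [mul_add, add_mul]
        abel
      rw [h5, h3]
      abel
    rw [h2] at h1
    exact h1

end Vale.LT2.G14

namespace Vale.LT2

open G14

variable {N : ℕ}

/-! ### Row G: the derivative of `L_l` and the inequality `tr (G F) ≤ N` -/
theorem exists_G (K M : Mat N) (hK : K.PosDef) (hM : Between K M) (l : ℝ) (hl : 0 < l) :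
    ∃ G : Mat N, (∀ X : Mat N, HasDerivAt (fun s => tp (Ll K M s) X) (tp G X) l) ∧
      tp G ((l : ℂ) • 1 + (K * K - M * M)) ≤ N := by
  obtain ⟨h1, h2⟩ := half K M hK hM.lower l hl
  obtain ⟨h3, h4⟩ := half K (-M) hK (by rw [← sub_eq_add_neg]; exact hM.upper) l hl
  rw [neg_mul_neg] at h4
  simp only [← sub_eq_add_neg] at h3 h4
  refine ⟨Gm (Kl K l + M) (Sl K l) + Gm (Kl K l - M) (Sl K l), ?_, ?_⟩
  · intro X
    have := (h1 X).add (h3 X)
    simp only [Ll, tp_add_left]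
    exact this
  · rw [tp_add_left]
    have h5 : tp (Kl K l + M) (Sl K l) + tp (Kl K l - M) (Sl K l) = N := by
      rw [← tp_add_left]
      have h6 : Kl K l + M + (Kl K l - M) = ((2 : ℝ) : ℂ) • Kl K l := by
        rw [show ((2 : ℝ) : ℂ) = 2 by norm_num, two_smul]
        abel
      rw [h6, tp, mul_Sl K hK l hl]
      simp
    linarith

end Vale.LT2
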